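import Mathlib
import Vale.Agent.P371.Defs
import Vale.Agent.P371.G.Final

namespace Vale.Agent.Results.P371.FullConjecture

open Vale.Agent.P371

theorem result (γ : ℝ) (h1 : 1 / 2 < γ) (h2 : γ < 3 / 2) (m : ℕ) (hm : 1 ≤ m) :
    LT γ m = LTone γ ∧ LT γ m = LT γ 1 ∧
      LT γ m = ENNReal.ofReal (2 * ((γ - 1 / 2) / (γ + 1 / 2)) ^ (γ - 1 / 2) * Lcl γ) :=
  G.sharp_all γ h1 h2 m hm

end Vale.Agent.Results.P371.FullConjecture
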