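import Mathlib
import Vale.Agent.P371S.LT3

namespace Vale.Agent.Results.P371.ScalarBound118

open Vale.Agent.P371S

theorem result (γ : ℝ) (hγ : 1 ≤ γ) : LT γ ≤ ENNReal.ofReal (1.18 * Lcl γ) :=
  LT_le γ hγ

end Vale.Agent.Results.P371.ScalarBound118
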