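import Mathlib
import Vale.Agent.P371.Defs
import Vale.Agent.P371.Final

namespace Vale.Agent.Results.P371.SharpGammaOne

open Vale.Agent.P371

theorem result (m : ℕ) (hm : 1 ≤ m) :
    LT 1 m = LTone 1 ∧ LT 1 m = LT 1 1 ∧
      LT 1 m = ENNReal.ofReal
        (2 * (((1 : ℝ) - 1 / 2) / (1 + 1 / 2)) ^ ((1 : ℝ) - 1 / 2) * Lcl 1) ∧
      LT 1 m = ENNReal.ofReal (4 / (3 * √3 * Real.pi)) ∧
      ∀ γ : ℝ, 1 ≤ γ → LT γ m ≤ ENNReal.ofReal (2 / √3 * Lcl γ) :=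
  sharp_all m hm

end Vale.Agent.Results.P371.SharpGammaOne
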