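import Mathlib
import Vale.Agent.P371.Defs
import Vale.Agent.P371.Final

namespace Vale.Agent.Results.P371.SharpOneExact

open Vale.Agent.P371

theorem result (m : ℕ) (hm : 1 ≤ m) :
    LT 1 m = LTone 1 ∧ LT 1 m = LT 1 1 ∧ LT 1 m = ENNReal.ofReal (4 / (3 * √3 * Real.pi)) :=
  sharp_one m hm

end Vale.Agent.Results.P371.SharpOneExact
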